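import Mathlib

/-!
# P043: the count `210 ∣ m` (two sets with disjoint sets of prime power zero levels)
-/

open Finset

namespace Vale.Agent.P043.H225

/-- sum over a progression of `N` translates -/
def Av {G : Type*} [AddCommGroup G] (N : ℕ) (k : G) (f : G → ℤ) (x : G) : ℤ :=
  ∑ j ∈ range N, f (x - j • k)

section
variable {G : Type*} [AddCommGroup G]

theorem Av_comm (N M : ℕ) (k l : G) (f : G → ℤ) : Av N k (Av M l f) = Av M l (Av N k f) := by
  funext x
  unfold Av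
  rw [sum_comm]
  refine sum_congr rfl fun j _ => sum_congr rfl fun i _ => ?_
  congr 1
  abel

theorem Av_per {N : ℕ} {k : G} {f : G → ℤ} {C : ℤ} (h : ∀ x, Av N k f x = C) (x : G) :
    f (x - N • k) = f x := by
  have h1 := h x
  have h2 := h (x - k)
  unfold Av at h1 h2
  have h3 : ∑ j ∈ range N, f (x - k - j • k) = ∑ j ∈ range N, f (x - (j + 1) • k) := by
    refine sum_congr rfl fun j _ => ?_
    congr 1
    rw [add_smul, one_smul]; abel
  rw [h3] at h2
  have h4 : ∑ j ∈ range (N + 1), f (x - j • k) = (∑ j ∈ range N, f (x - j • k)) + f (x - N • k) :=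
    sum_range_succ _ _
  have h5 : ∑ j ∈ range (N + 1), f (x - j • k)
      = (∑ j ∈ range N, f (x - (j + 1) • k)) + f (x - 0 • k) := sum_range_succ' _ _
  rw [zero_smul, sub_zero] at h5
  linarith

theorem per_mul {N : ℕ} {k : G} {f : G → ℤ} (h : ∀ x, f (x - k) = f x) (x : G) :
    f (x - N • k) = f x := by
  induction N with
  | zero => simp
  | succ n ih =>
    have : x - (n + 1) • k = (x - n • k) - k := by rw [add_smul, one_smul]; abel
    rw [this, h, ih]

/-- a function whose averages over progressions `(N, k)` are constant, with `k` a multiple of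
`N k`, is constant -/
theorem Av_const {N : ℕ} {k : G} {f : G → ℤ} {C : ℤ} (h : ∀ x, Av N k f x = C) {r : ℕ}
    (hr : r • (N • k) = k) (x : G) : (N : ℤ) * f x = C := by
  have h1 : ∀ x, f (x - k) = f x := fun x => by
    have h2 := per_mul (N := r) (k := N • k) (f := f) (fun y => Av_per h y) x
    rwa [hr] at h2
  have h3 := h x
  unfold Av at h3
  rw [sum_congr rfl fun j _ => per_mul (N := j) h1 x] at h3
  simpa using h3

/-- the two progressions `(N, k)` and `(N, N k)` together -/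
theorem Av_pair {N : ℕ} {k : G} {f : G → ℤ} {C D : ℤ} (h : ∀ x, Av N k f x = C)
    (h' : ∀ x, Av N (N • k) f x = D) (x : G) : (N : ℤ) * f x = D := by
  have h3 := h' x
  unfold Av at h3
  rw [sum_congr rfl fun j _ => per_mul (N := j) (fun y => Av_per h y) x] at h3
  simpa using h3

/-- peeling off a factor -/
theorem Av_peel {N : ℕ} (hN : 0 < N) {k : G} {f : G → ℤ} (h : ∃ C, ∀ x, Av N k f x = C) {r : ℕ}
    (hr : r • (N • k) = k) : ∃ C, ∀ x, f x = C := by
  obtain ⟨C, hC⟩ := h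
  refine ⟨f 0, fun x => ?_⟩
  have h1 := Av_const hC hr x
  have h2 := Av_const hC hr 0
  have h3 : (N : ℤ) * f x = N * f 0 := by rw [h1, h2]
  have hN' : (N : ℤ) ≠ 0 := by exact_mod_cast hN.ne'
  exact mul_left_cancel₀ hN' h3

theorem Av_peel2 {N : ℕ} (hN : 0 < N) {k : G} {f : G → ℤ} (h : ∃ C, ∀ x, Av N k f x = C)
    (h' : ∃ C, ∀ x, Av N (N • k) f x = C) : ∃ C, ∀ x, f x = C := by
  obtain ⟨C, hC⟩ := h
  obtain ⟨D, hD⟩ := h'
  refine ⟨f 0, fun x => ?_⟩
  have h1 := Av_pair hC hD x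
  have h2 := Av_pair hC hD 0
  have h3 : (N : ℤ) * f x = N * f 0 := by rw [h1, h2]
  have hN' : (N : ℤ) ≠ 0 := by exact_mod_cast hN.ne'
  exact mul_left_cancel₀ hN' h3

end

/-- in a cyclic group of prime power order a prime to the order is a unit -/
theorem unit_smul {q a N : ℕ} (hq : q.Prime) (hN : N.Prime) (hne : N ≠ q) (k : ZMod (q ^ a)) :
    ∃ r : ℕ, r • (N • k) = k := by
  have hc : Nat.Coprime N (q ^ a) := Nat.Coprime.pow_right _ ((Nat.coprime_primes hN hq).2 hne)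
  have : NeZero (q ^ a) := ⟨(pow_pos hq.pos a).ne'⟩
  obtain ⟨u, hu⟩ := (ZMod.isUnit_iff_coprime N (q ^ a)).2 hc
  refine ⟨(↑(u⁻¹) : ZMod (q ^ a)).val, ?_⟩
  rw [nsmul_eq_mul, nsmul_eq_mul, ← mul_assoc, ZMod.natCast_val, ZMod.cast_id', id, ← hu]
  simp

/-- push forward -/
def pf {p n : ℕ} [NeZero p] (f : ZMod p → ℤ) (π : ZMod p →+ ZMod n) (r : ZMod n) : ℤ :=
  ∑ x ∈ univ.filter (fun x => π x = r), f x

theorem pf_Av {p n : ℕ} [NeZero p] (f : ZMod p → ℤ) (π : ZMod p →+ ZMod n) (N : ℕ) (k : ZMod p)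
    (r : ZMod n) : Av N (π k) (pf f π) r = pf (Av N k f) π r := by
  unfold Av pf
  rw [sum_comm]
  refine sum_congr rfl fun j _ => ?_
  refine sum_bij' (fun x _ => x + j • k) (fun x _ => x - j • k) ?_ ?_ ?_ ?_ ?_
  · intro x hx
    rw [mem_filter] at hx ⊢
    exact ⟨mem_univ _, by rw [map_add, map_nsmul, hx.2]; abel⟩
  · intro x hx
    rw [mem_filter] at hx ⊢
    exact ⟨mem_univ _, by rw [map_sub, map_nsmul, hx.2]⟩
  · intro x _; abel
  · intro x _; abel
  · intro x _
    congr 1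
    abel

theorem pf_const {p n : ℕ} [NeZero p] [NeZero n] (π : ZMod p →+ ZMod n)
    (hπ : Function.Surjective π) {f : ZMod p → ℤ} {C : ℤ} (h : ∀ x, f x = C) :
    ∃ D, ∀ r, pf f π r = D := by
  refine ⟨pf f π 0, fun r => ?_⟩
  obtain ⟨y, rfl⟩ := hπ r
  unfold pf
  refine sum_bij' (fun x _ => x - y) (fun x _ => x + y) ?_ ?_ ?_ ?_ ?_
  · intro x hx
    rw [mem_filter] at hx ⊢
    exact ⟨mem_univ _, by rw [map_sub, hx.2, sub_self]⟩
  · intro x hx
    rw [mem_filter] at hx ⊢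
    exact ⟨mem_univ _, by rw [map_add, hx.2, zero_add]⟩
  · intro x _; abel
  · intro x _; abel
  · intro x _
    rw [h, h]

theorem pf_sum {p n : ℕ} [NeZero p] [NeZero n] (π : ZMod p →+ ZMod n) (f : ZMod p → ℤ) :
    ∑ r, pf f π r = ∑ x, f x := by
  unfold pf
  exact sum_fiberwise _ _ _

theorem Av_sum {p : ℕ} [NeZero p] (N : ℕ) (k : ZMod p) (f : ZMod p → ℤ) :
    ∑ x, Av N k f x = N * ∑ x, f x := by
  unfold Av
  rw [sum_comm]
  have : ∀ j ∈ range N, ∑ x, f (x - j • k) = ∑ x, f x := fun j _ =>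
    (Equiv.subRight (j • k)).sum_comp f
  rw [sum_congr rfl this]
  simp

/-- one prime power -/
theorem prime_pow {p : ℕ} [NeZero p] {t : ZMod p → ℤ} {m : ℤ} {e4 e9 e25 e49 : ZMod p}
    (h1 : ∀ x, Av 2 (2 • e4) (Av 3 (3 • e9) (Av 5 e25 (Av 7 e49 t))) x = m)
    (h2 : ∀ x, Av 2 e4 (Av 3 e9 (Av 5 (5 • e25) (Av 7 (7 • e49) t))) x = m)
    {q a : ℕ} (hq : q.Prime) (ha : q ^ a ∣ p) : ((q ^ a : ℕ) : ℤ) ∣ ∑ x, t x := by
  have : NeZero (q ^ a) := ⟨(pow_pos hq.pos a).ne'⟩
  set π : ZMod p →+ ZMod (q ^ a) := (ZMod.castHom ha (ZMod (q ^ a))).toAddMonoidHom with hπ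
  have hsurj : Function.Surjective π := ZMod.castHom_surjective ha
  set s := pf t π with hs
  have g1 : ∃ C, ∀ x, Av 2 (2 • π e4) (Av 3 (3 • π e9) (Av 5 (π e25) (Av 7 (π e49) s))) x = C := by
    obtain ⟨D, hD⟩ := pf_const π hsurj h1
    refine ⟨D, fun x => ?_⟩
    rw [← hD x, ← pf_Av]
    have e1 : pf (Av 3 (3 • e9) (Av 5 e25 (Av 7 e49 t))) π
        = Av 3 (π (3 • e9)) (pf (Av 5 e25 (Av 7 e49 t)) π) := funext fun r => (pf_Av _ _ _ _ _).symm
    have e2 : pf (Av 5 e25 (Av 7 e49 t)) π = Av 5 (π e25) (pf (Av 7 e49 t) π) :=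
      funext fun r => (pf_Av _ _ _ _ _).symm
    have e3 : pf (Av 7 e49 t) π = Av 7 (π e49) (pf t π) := funext fun r => (pf_Av _ _ _ _ _).symm
    rw [e1, e2, e3, map_nsmul, map_nsmul]
  have g2 : ∃ C, ∀ x, Av 2 (π e4) (Av 3 (π e9) (Av 5 (5 • π e25) (Av 7 (7 • π e49) s))) x = C := by
    obtain ⟨D, hD⟩ := pf_const π hsurj h2
    refine ⟨D, fun x => ?_⟩
    rw [← hD x, ← pf_Av]
    have e1 : pf (Av 3 e9 (Av 5 (5 • e25) (Av 7 (7 • e49) t))) π
        = Av 3 (π e9) (pf (Av 5 (5 • e25) (Av 7 (7 • e49) t)) π) :=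
      funext fun r => (pf_Av _ _ _ _ _).symm
    have e2 : pf (Av 5 (5 • e25) (Av 7 (7 • e49) t)) π
        = Av 5 (π (5 • e25)) (pf (Av 7 (7 • e49) t) π) := funext fun r => (pf_Av _ _ _ _ _).symm
    have e3 : pf (Av 7 (7 • e49) t) π = Av 7 (π (7 • e49)) (pf t π) :=
      funext fun r => (pf_Av _ _ _ _ _).symm
    rw [e1, e2, e3, map_nsmul, map_nsmul]
  have hconst : ∃ C, ∀ x, s x = C := by
    by_cases q2 : q = 2
    · subst q2
      obtain ⟨r3, k3⟩ := unit_smul (a := a) hq Nat.prime_three (by norm_num) (3 • π e9)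
      obtain ⟨r5, k5⟩ := unit_smul (a := a) hq Nat.prime_five (by norm_num) (π e25)
      obtain ⟨r7, k7⟩ := unit_smul (a := a) hq (by norm_num : Nat.Prime 7) (by norm_num) (π e49)
      obtain ⟨r3', k3'⟩ := unit_smul (a := a) hq Nat.prime_three (by norm_num) (π e9)
      obtain ⟨r5', k5'⟩ := unit_smul (a := a) hq Nat.prime_five (by norm_num) (5 • π e25)
      obtain ⟨r7', k7'⟩ := unit_smul (a := a) hq (by norm_num : Nat.Prime 7) (by norm_num)
        (7 • π e49)
      have u1 : ∃ C, ∀ x, Av 2 (2 • π e4) s x = C := by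
        refine Av_peel (N := 7) (by norm_num) ?_ k7
        refine Av_peel (N := 5) (by norm_num) ?_ k5
        refine Av_peel (N := 3) (by norm_num) ?_ k3
        obtain ⟨C, hC⟩ := g1
        refine ⟨C, fun x => ?_⟩
        rw [← hC x, Av_comm 7 2, Av_comm 5 2, Av_comm 3 2]
      have u2 : ∃ C, ∀ x, Av 2 (π e4) s x = C := by
        refine Av_peel (N := 7) (by norm_num) ?_ k7'
        refine Av_peel (N := 5) (by norm_num) ?_ k5'
        refine Av_peel (N := 3) (by norm_num) ?_ k3'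
        obtain ⟨C, hC⟩ := g2
        refine ⟨C, fun x => ?_⟩
        rw [← hC x, Av_comm 7 2, Av_comm 5 2, Av_comm 3 2]
      exact Av_peel2 (by norm_num) u2 u1
    by_cases q3 : q = 3
    · subst q3
      obtain ⟨r2, k2⟩ := unit_smul (a := a) hq Nat.prime_two (by norm_num) (2 • π e4)
      obtain ⟨r5, k5⟩ := unit_smul (a := a) hq Nat.prime_five (by norm_num) (π e25)
      obtain ⟨r7, k7⟩ := unit_smul (a := a) hq (by norm_num : Nat.Prime 7) (by norm_num) (π e49)
      obtain ⟨r2', k2'⟩ := unit_smul (a := a) hq Nat.prime_two (by norm_num) (π e4)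
      obtain ⟨r5', k5'⟩ := unit_smul (a := a) hq Nat.prime_five (by norm_num) (5 • π e25)
      obtain ⟨r7', k7'⟩ := unit_smul (a := a) hq (by norm_num : Nat.Prime 7) (by norm_num)
        (7 • π e49)
      have u1 : ∃ C, ∀ x, Av 3 (3 • π e9) s x = C := by
        refine Av_peel (N := 7) (by norm_num) ?_ k7
        refine Av_peel (N := 5) (by norm_num) ?_ k5
        refine Av_peel (N := 2) (by norm_num) ?_ k2
        obtain ⟨C, hC⟩ := g1
        refine ⟨C, fun x => ?_⟩
        rw [← hC x, Av_comm 7 3, Av_comm 5 3]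
      have u2 : ∃ C, ∀ x, Av 3 (π e9) s x = C := by
        refine Av_peel (N := 7) (by norm_num) ?_ k7'
        refine Av_peel (N := 5) (by norm_num) ?_ k5'
        refine Av_peel (N := 2) (by norm_num) ?_ k2'
        obtain ⟨C, hC⟩ := g2
        refine ⟨C, fun x => ?_⟩
        rw [← hC x, Av_comm 7 3, Av_comm 5 3]
      exact Av_peel2 (by norm_num) u2 u1
    by_cases q5 : q = 5
    · subst q5
      obtain ⟨r2, k2⟩ := unit_smul (a := a) hq Nat.prime_two (by norm_num) (2 • π e4)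
      obtain ⟨r3, k3⟩ := unit_smul (a := a) hq Nat.prime_three (by norm_num) (3 • π e9)
      obtain ⟨r7, k7⟩ := unit_smul (a := a) hq (by norm_num : Nat.Prime 7) (by norm_num) (π e49)
      obtain ⟨r2', k2'⟩ := unit_smul (a := a) hq Nat.prime_two (by norm_num) (π e4)
      obtain ⟨r3', k3'⟩ := unit_smul (a := a) hq Nat.prime_three (by norm_num) (π e9)
      obtain ⟨r7', k7'⟩ := unit_smul (a := a) hq (by norm_num : Nat.Prime 7) (by norm_num)
        (7 • π e49)
      have u1 : ∃ C, ∀ x, Av 5 (π e25) s x = C := by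
        refine Av_peel (N := 7) (by norm_num) ?_ k7
        refine Av_peel (N := 3) (by norm_num) ?_ k3
        refine Av_peel (N := 2) (by norm_num) ?_ k2
        obtain ⟨C, hC⟩ := g1
        refine ⟨C, fun x => ?_⟩
        rw [← hC x, Av_comm 7 5]
      have u2 : ∃ C, ∀ x, Av 5 (5 • π e25) s x = C := by
        refine Av_peel (N := 7) (by norm_num) ?_ k7'
        refine Av_peel (N := 3) (by norm_num) ?_ k3'
        refine Av_peel (N := 2) (by norm_num) ?_ k2'
        obtain ⟨C, hC⟩ := g2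
        refine ⟨C, fun x => ?_⟩
        rw [← hC x, Av_comm 7 5]
      exact Av_peel2 (by norm_num) u1 u2
    by_cases q7 : q = 7
    · subst q7
      obtain ⟨r2, k2⟩ := unit_smul (a := a) hq Nat.prime_two (by norm_num) (2 • π e4)
      obtain ⟨r3, k3⟩ := unit_smul (a := a) hq Nat.prime_three (by norm_num) (3 • π e9)
      obtain ⟨r5, k5⟩ := unit_smul (a := a) hq Nat.prime_five (by norm_num) (π e25)
      obtain ⟨r2', k2'⟩ := unit_smul (a := a) hq Nat.prime_two (by norm_num) (π e4)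
      obtain ⟨r3', k3'⟩ := unit_smul (a := a) hq Nat.prime_three (by norm_num) (π e9)
      obtain ⟨r5', k5'⟩ := unit_smul (a := a) hq Nat.prime_five (by norm_num) (5 • π e25)
      have u1 : ∃ C, ∀ x, Av 7 (π e49) s x = C := by
        refine Av_peel (N := 5) (by norm_num) ?_ k5
        refine Av_peel (N := 3) (by norm_num) ?_ k3
        refine Av_peel (N := 2) (by norm_num) ?_ k2
        exact g1
      have u2 : ∃ C, ∀ x, Av 7 (7 • π e49) s x = C := by
        refine Av_peel (N := 5) (by norm_num) ?_ k5'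
        refine Av_peel (N := 3) (by norm_num) ?_ k3'
        refine Av_peel (N := 2) (by norm_num) ?_ k2'
        exact g2
      exact Av_peel2 (by norm_num) u1 u2
    · obtain ⟨r2, k2⟩ := unit_smul (a := a) hq Nat.prime_two (Ne.symm q2) (2 • π e4)
      obtain ⟨r3, k3⟩ := unit_smul (a := a) hq Nat.prime_three (Ne.symm q3) (3 • π e9)
      obtain ⟨r5, k5⟩ := unit_smul (a := a) hq Nat.prime_five (Ne.symm q5) (π e25)
      obtain ⟨r7, k7⟩ := unit_smul (a := a) hq (by norm_num : Nat.Prime 7) (Ne.symm q7) (π e49)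
      exact Av_peel (N := 7) (by norm_num) (Av_peel (N := 5) (by norm_num)
        (Av_peel (N := 3) (by norm_num) (Av_peel (N := 2) (by norm_num) g1 k2) k3) k5) k7
  obtain ⟨C, hC⟩ := hconst
  have hsum : ∑ x, t x = (q ^ a : ℕ) * C := by
    rw [← pf_sum π t, sum_congr rfl fun r _ => hC r]
    simp [ZMod.card]
  rw [hsum]
  exact dvd_mul_right _ _

/-- **The count.** -/
theorem count {p : ℕ} [NeZero p] {t : ZMod p → ℤ} {m : ℤ} {e4 e9 e25 e49 : ZMod p}
    (h1 : ∀ x, Av 2 (2 • e4) (Av 3 (3 • e9) (Av 5 e25 (Av 7 e49 t))) x = m)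
    (h2 : ∀ x, Av 2 e4 (Av 3 e9 (Av 5 (5 • e25) (Av 7 (7 • e49) t))) x = m) :
    (210 : ℤ) ∣ m := by
  have hp : 0 < p := Nat.pos_of_ne_zero (NeZero.ne p)
  have hT : (p : ℤ) ∣ ∑ x, t x := by
    have h3 : p ∣ (∑ x, t x).natAbs := by
      rw [Nat.dvd_iff_prime_pow_dvd_dvd]
      intro q a hq ha
      have := prime_pow h1 h2 hq ha
      exact Int.natCast_dvd.1 this
    exact Int.natCast_dvd.2 h3
  obtain ⟨c, hc⟩ := hT
  have h4 : ∑ x, Av 2 (2 • e4) (Av 3 (3 • e9) (Av 5 e25 (Av 7 e49 t))) x = (210 : ℤ) * ∑ x, t x := by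
    rw [Av_sum, Av_sum, Av_sum, Av_sum]
    push_cast
    ring
  have h5 : ∑ x : ZMod p, Av 2 (2 • e4) (Av 3 (3 • e9) (Av 5 e25 (Av 7 e49 t))) x = p * m := by
    rw [sum_congr rfl fun x _ => h1 x]
    simp [ZMod.card]
  rw [h5, hc] at h4
  have hp' : (p : ℤ) ≠ 0 := by exact_mod_cast hp.ne'
  refine ⟨c, mul_left_cancel₀ hp' ?_⟩
  rw [h4]; ring

/-- the two shapes of a unit row: offsets `i, j, k, l` in the four prime power directions -/
def off1 (e4 e9 e25 e49 : ℤ) (i j k l : ℕ) : ℤ :=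
  i * (2 * e4) + j * (3 * e9) + k * e25 + l * e49

def off2 (e4 e9 e25 e49 : ℤ) (i j k l : ℕ) : ℤ :=
  i * e4 + j * e9 + k * (5 * e25) + l * (7 * e49)

/-- **The count, for periodic functions on `ℤ`.** -/
theorem count_int {p : ℕ} (hp : 0 < p) {t : ℤ → ℤ} (hper : ∀ x, t (x + p) = t x) {m : ℤ}
    {e4 e9 e25 e49 : ℤ}
    (h1 : ∀ x, ∑ i ∈ range 2, ∑ j ∈ range 3, ∑ k ∈ range 5, ∑ l ∈ range 7,
      t (x - off1 e4 e9 e25 e49 i j k l) = m)
    (h2 : ∀ x, ∑ i ∈ range 2, ∑ j ∈ range 3, ∑ k ∈ range 5, ∑ l ∈ range 7,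
      t (x - off2 e4 e9 e25 e49 i j k l) = m) : (210 : ℤ) ∣ m := by
  have : NeZero p := ⟨hp.ne'⟩
  have hper' : ∀ (n : ℕ) x, t (x + n * p) = t x := by
    intro n
    induction n with
    | zero => intro x; simp
    | succ n ih =>
      intro x
      have : x + ((n + 1 : ℕ) : ℤ) * p = (x + n * p) + p := by push_cast; ring
      rw [this, hper, ih]
  have hper2 : ∀ (n : ℤ) x, t (x + n * p) = t x := by
    intro n x
    rcases Int.eq_nat_or_neg n with ⟨k, rfl | rfl⟩
    · exact hper' k x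
    · rw [← hper' k (x + -(k : ℤ) * p)]
      congr 1; ring
  set T : ZMod p → ℤ := fun x => t (x.val : ℤ) with hT
  have hTt : ∀ z : ℤ, T (z : ZMod p) = t z := by
    intro z
    have h3 : ((z : ZMod p).val : ℤ) = z % p := ZMod.val_intCast z
    rw [hT]
    show t (((z : ZMod p).val : ℤ)) = t z
    rw [h3, ← hper2 (z / p) (z % p)]
    congr 1
    rw [mul_comm]
    exact Int.emod_add_mul_ediv z p
  refine count (t := T) (e4 := (e4 : ZMod p)) (e9 := (e9 : ZMod p)) (e25 := (e25 : ZMod p))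
    (e49 := (e49 : ZMod p)) (fun x => ?_) (fun x => ?_)
  · obtain ⟨z, rfl⟩ := ZMod.intCast_surjective x
    rw [← h1 z]
    unfold Av
    refine sum_congr rfl fun i _ => sum_congr rfl fun j _ => sum_congr rfl fun k _ =>
      sum_congr rfl fun l _ => ?_
    rw [← hTt]
    congr 1
    unfold off1
    push_cast
    simp only [nsmul_eq_mul]
    push_cast
    ring
  · obtain ⟨z, rfl⟩ := ZMod.intCast_surjective x
    rw [← h2 z]
    unfold Av
    refine sum_congr rfl fun i _ => sum_congr rfl fun j _ => sum_congr rfl fun k _ =>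
      sum_congr rfl fun l _ => ?_
    rw [← hTt]
    congr 1
    unfold off2
    push_cast
    simp only [nsmul_eq_mul]
    push_cast
    ring

end Vale.Agent.P043.H225
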